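import Crest.Agent.R165.Lat

/-! # R165, continuum layer: definitions (FROZEN; ask helper96 before changing) -/

set_option autoImplicit false
noncomputable section
open Classical Filter Topology

namespace Crest.Agent.R165

/-- what is used about a `C²` Jordan domain -/
structure Nice (D : Set ℂ) : Prop where
  isOpen : IsOpen D
  bdd : Bornology.IsBounded D
  balls : ∃ ρ : ℝ, 0 < ρ ∧ ∀ ζ ∈ frontier D, ∃ ν : ℂ, ‖ν‖ = 1 ∧ Metric.ball (ζ + ρ * ν) ρ ⊆ D ∧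
    Disjoint (Metric.ball (ζ - ρ * ν) ρ) (closure D)
  compl : IsPreconnected (closure D)ᶜ
  riem : ∃ φ : ℂ → ℂ, DifferentiableOn ℂ φ D ∧ Set.BijOn φ D (Metric.ball 0 1) ∧
    ∀ ζ ∈ frontier D, ∃ ζ' : ℂ, Tendsto φ (𝓝[D] ζ) (𝓝 ζ')

/-- a nice bounded domain, or the plane with an even number of spins -/
def NiceP (D : Set ℂ) (n : ℕ) : Prop := Nice D ∨ (D = Set.univ ∧ Even n)

def rhoX {n : ℕ} (x : Fin n → ℂ) (z : ℂ) : ℂ := ∏ i, (z - x i)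
/-- `c_i²`, where the spinor `f = g / √ρ` behaves like `c_i (z - x_i)^{-1/2}` -/
def cSq {n : ℕ} (x : Fin n → ℂ) (g : ℂ → ℂ) (i : Fin n) : ℂ := g (x i) ^ 2 / ∏ k ∈ Finset.univ.erase i, (x i - x k)

/-- Riemann–Hilbert class: `f = g / √ρ` is a spinor, holomorphic off `Y`, `h = -Re ∫ f²` is single valued, vanishes
at `∂D` and is not negative near any boundary point; in the plane `|f|² = O(1/|z|)`. -/
structure RH (D : Set ℂ) {n : ℕ} (x : Fin n → ℂ) (Y : Set ℂ) (g : ℂ → ℂ) : Prop where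
  hol : DifferentiableOn ℂ g (D \ Y)
  pot : ∃ h : ℂ → ℝ,
    (∀ z ∈ D \ Y, (∀ i, z ≠ x i) →
      HasFDerivAt h (Complex.reCLM.comp ((-(g z ^ 2 / rhoX x z)) • ContinuousLinearMap.id ℝ ℂ : ℂ →L[ℝ] ℂ)) z) ∧
    (∀ ε > 0, ∃ δ > 0, ∀ z ∈ D, (∃ ζ, ζ ∉ D ∧ dist z ζ < δ) → |h z| < ε) ∧
    ∀ ζ ∈ frontier D, ∀ r > 0, ∃ z ∈ D, dist z ζ < r ∧ 0 ≤ h z
  inf : ∃ C R : ℝ, ∀ z ∈ D, R ≤ ‖z‖ → ‖g z‖ ^ 2 * ‖z‖ ≤ C * ‖rhoX x z‖

/-- homogeneous condition at the branch point `x i` -/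
def BrOK {n : ℕ} (x : Fin n → ℂ) (g : ℂ → ℂ) (i : Fin n) : Prop := (cSq x g i).im = 0 ∧ (cSq x g i).re ≤ 0

/-- solution with a simple pole of residue `β` at the bulk point `y` -/
def RHbulk (D : Set ℂ) {n : ℕ} (x : Fin n → ℂ) (y β : ℂ) (g : ℂ → ℂ) : Prop :=
  RH D x {y} g ∧ (∀ i, BrOK x g i) ∧ Tendsto (fun z => (z - y) * g z) (𝓝[≠] y) (𝓝 β)

/-- solution with its source at the branch point `x i`, normalised by `c_i² = 1` -/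
def RHbr (D : Set ℂ) {n : ℕ} (x : Fin n → ℂ) (i : Fin n) (g : ℂ → ℂ) : Prop :=
  RH D x ∅ g ∧ (∀ k, k ≠ i → BrOK x g k) ∧ cSq x g i = 1

/-- the coefficient `𝒜`: `f = ±(z - x_i)^{-1/2} (1 + 2 𝒜 (z - x_i) + …)` -/
def coefA {n : ℕ} (x : Fin n → ℂ) (i : Fin n) (g : ℂ → ℂ) : ℂ :=
  (deriv g (x i) / g (x i) - (1 / 2) * ∑ k ∈ Finset.univ.erase i, (x i - x k)⁻¹) / 2

/-- a sequence of type P lattice geometries approximating `D` (bounded domain or plane) at mesh `a k` -/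
structure Appr (D : Set ℂ) (a : ℕ → ℝ) (E : ℕ → Finset Edge) (ρ : ℕ → ℝ) : Prop where
  pos : ∀ k, 0 < a k
  lim : Tendsto a atTop (𝓝 0)
  reg : ∀ k, Reg ↑(E k) (ρ k)
  rho : ∃ ρ₀ > 0, ∀ k, ρ₀ ≤ a k * ρ k
  rho' : D = Set.univ → Tendsto (fun k => a k * ρ k) atTop atTop
  inn : ∀ K, IsCompact K → K ⊆ D → ∀ᶠ k in atTop, ∀ e : Edge, (a k : ℂ) * toC e.1 ∈ K → e ∈ E k
  out : ∃ C : ℝ, ∀ k, ∀ e ∈ E k, ∃ z ∈ D, dist ((a k : ℂ) * toC e.1) z ≤ C * a k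

/-- the lattice points `v k` converge to `z` at mesh `a k` -/
def PtLim (a : ℕ → ℝ) (v : ℕ → Site) (z : ℂ) : Prop := Tendsto (fun k => (a k : ℂ) * toC (v k)) atTop (𝓝 z)

/-- "continuous convergence" on `U` of lattice functions -/
def CLim {β : Type} [TopologicalSpace β] (a : ℕ → ℝ) (U : Set ℂ) (F : ℕ → Site → β) (f : ℂ → β) : Prop :=
  ∀ z ∈ U, ∀ v : ℕ → Site, PtLim a v z → Tendsto (fun k => F k (v k)) atTop (𝓝 (f z))

def spinsOf {n : ℕ} (v : Fin n → Site) : Finset Site := Finset.univ.image v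

end Crest.Agent.R165
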