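import Crest.Agent.R165.Gr

/-! # R165, abstract block-free polymer RG: definitions (FROZEN; ask helper96 before changing)

Sites `X` with an `ℕ`-valued pseudo-metric, activities in a commutative `ℝ`-algebra `A` with augmentation `e`. -/

set_option autoImplicit false
noncomputable section
open Classical

namespace Crest.Agent.R165

/-- two-dimensional discrete geometry (`ℤ²` or a torus with the sup-metric) -/
structure Geo (X : Type) where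
  d : X → X → ℕ
  d_self : ∀ x, d x x = 0
  d_comm : ∀ x y, d x y = d y x
  d_tri : ∀ x y z, d x z ≤ d x y + d y z
  ball : X → ℕ → Finset X
  mem_ball : ∀ x R y, y ∈ ball x R ↔ d x y ≤ R
  cover : ∀ x R l, 1 ≤ l → ∃ C : Finset X, C.card ≤ (2 * (R / l) + 3) ^ 2 ∧ ∀ y ∈ ball x R, ∃ c ∈ C, d c y ≤ l

variable {X : Type} {A : Type} [CommRing A] [Algebra ℝ A] [Algebra ℚ A]

namespace Geo
variable (G : Geo X)

def Sep (r : ℕ) (Y Z : Finset X) : Prop := ∀ y ∈ Y, ∀ z ∈ Z, r < G.d y z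

/-- non-empty and `r`-connected -/
def Conn (r : ℕ) (Z : Finset X) : Prop :=
  Z.Nonempty ∧ ∀ x ∈ Z, ∀ y ∈ Z, Relation.ReflTransGen (fun a b => a ∈ Z ∧ b ∈ Z ∧ G.d a b ≤ r) x y

/-- families of non-empty, pairwise `r`-separated polymers inside `Λ` -/
def fams (r : ℕ) (Λ : Finset X) : Finset (Finset (Finset X)) :=
  Λ.powerset.powerset.filter fun 𝒳 => (∀ Y ∈ 𝒳, Y.Nonempty) ∧ ∀ Y ∈ 𝒳, ∀ Z ∈ 𝒳, Y ≠ Z → G.Sep r Y Z

/-- hard-core polymer partition function -/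
def Xi (r : ℕ) (K : Finset X → A) (Λ : Finset X) : A := ∑ 𝒳 ∈ G.fams r Λ, ∏ Z ∈ 𝒳, K Z

/-- Mayer expansion of the soft activity `P` together with the hard activity `K`, grouped in `r'`-connected sets -/
def grp (r r' : ℕ) (P K : Finset X → A) (Z : Finset X) : A :=
  if G.Conn r' Z then
    ∑ 𝒮 ∈ Z.powerset.powerset, ∑ 𝒳 ∈ G.fams r Z,
      if (𝒮 ∪ 𝒳).biUnion id = Z then (∏ Y ∈ 𝒮, P Y) * ∏ Y ∈ 𝒳, K Y else 0
  else 0

/-- covering number by balls of radius `l` -/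
def cov (l : ℕ) (Z : Finset X) : ℕ := sInf {n | ∃ C : Finset X, C.card = n ∧ ∀ z ∈ Z, ∃ c ∈ C, G.d c z ≤ l}

def Small (l : ℕ) (Z : Finset X) : Prop := Z.Nonempty ∧ ∀ x ∈ Z, ∀ y ∈ Z, G.d x y ≤ 2 * l

/-- polymer norm `≤ α` (majorant form) -/
def PN (Bd : Finset X → A → ℝ → Prop) (l : ℕ) (a : ℝ) (K : Finset X → A) (α : ℝ) : Prop :=
  ∃ b : Finset X → ℝ, (∀ Z, 0 ≤ b Z ∧ Bd Z (K Z) (b Z)) ∧
    ∀ (y : X) (𝒮 : Finset (Finset X)), (∀ Z ∈ 𝒮, ∃ z ∈ Z, G.d y z ≤ l) → ∑ Z ∈ 𝒮, a ^ G.cov l Z * b Z ≤ α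

/-- site norm `≤ α` -/
def SN (Bd : Finset X → A → ℝ → Prop) (l : ℕ) (q : X → A) (α : ℝ) : Prop :=
  ∃ b : X → ℝ, (∀ x, 0 ≤ b x ∧ Bd {x} (q x) (b x)) ∧ ∀ y, ∑ x ∈ G.ball y l, b x ≤ α

end Geo

/-- axioms of a localized gauge -/
structure BdAx (Bd : Finset X → A → ℝ → Prop) (e : A →ₐ[ℝ] ℝ) : Prop where
  zero : ∀ Z, Bd Z 0 0
  one : ∀ Z, Bd Z 1 1
  add : ∀ {Z F F' c c'}, Bd Z F c → Bd Z F' c' → Bd Z (F + F') (c + c')
  smul : ∀ {Z F c} (t : ℝ), Bd Z F c → Bd Z (t • F) (|t| * c)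
  mul : ∀ {Z F F' c c'}, Bd Z F c → Bd Z F' c' → Bd Z (F * F') (c * c')
  mono : ∀ {Z Z' F c c'}, Bd Z F c → Z ⊆ Z' → c ≤ c' → Bd Z' F c'
  aug : ∀ {Z F c}, Bd Z F c → |e F| ≤ c
  nil : ∀ F, e F = 0 → IsNilpotent F

/-- RG state: kept local potential `q`, local potential `qm` to be moved to the background, background `M`, remainder `K` -/
structure St (X A : Type) where
  q : X → A
  qm : X → A
  M : Finset X → A
  K : Finset X → A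

/-- data of one RG step from scale `l` to scale `l'` -/
structure Sp (X A : Type) [CommRing A] [Algebra ℝ A] where
  l : ℕ
  l' : ℕ
  mu : A →ₗ[ℝ] A
  loc : X → A →ₗ[ℝ] A
  cst : A →ₗ[ℝ] A
  mv : X → A →ₗ[ℝ] A

/-- a site activity as a polymer activity on singletons -/
def sgl (p : X → A) (Z : Finset X) : A := ∑ x ∈ Z, if Z = {x} then p x else 0

namespace Sp
variable (G : Geo X) (e : A →ₐ[ℝ] ℝ) (S : Sp X A) (s : St X A)

def Khat (Z : Finset X) : A :=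
  S.mu (G.grp S.l S.l' (sgl fun x => exA e (s.q x + s.qm x) - 1) (fun Y => s.M Y + s.K Y) Z)

/-- the part extracted from the small polymer `Y` at the base point `x` -/
def Wx (x : X) (Y : Finset X) : A := ((Y.card : ℝ)⁻¹) • S.loc x (S.mu (s.K Y + sgl s.q Y))

def W (Y : Finset X) : A := if G.Small S.l Y then ∑ x ∈ Y, S.Wx s x Y else 0

/-- everything extracted at the site `x` -/
def w (x : X) : A := ∑ Y ∈ (G.ball x (2 * S.l)).powerset, if G.Small S.l Y ∧ x ∈ Y then S.Wx s x Y else 0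

def Mnext (Z : Finset X) : A := S.mu (G.grp S.l S.l' (sgl fun x => exA e (s.qm x) - 1) s.M Z)

/-- extracted central constant ("energy") at `x` -/
def en (x : X) : A := S.cst (S.w G s x)

def next : St X A where
  q x := S.w G s x - S.cst (S.w G s x) - S.mv x (S.w G s x)
  qm x := S.mv x (S.w G s x)
  M := S.Mnext G e s
  K Z := G.grp S.l' S.l' (fun Y => exA e (-S.W G s Y) - 1) (S.Khat G e s) Z - S.Mnext G e s Z

end Sp

/-- locality of a state with respect to a monotone family of subalgebras -/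
structure St.Lcl (G : Geo X) (Lc : Finset X → Subalgebra ℝ A) (l : ℕ) (s : St X A) : Prop where
  q : ∀ x, s.q x ∈ Lc {x}
  qm : ∀ x, s.qm x ∈ Lc {x}
  M : ∀ Z, s.M Z ∈ Lc Z
  K : ∀ Z, s.K Z ∈ Lc Z
  Mc : ∀ Z, ¬ G.Conn l Z → s.M Z = 0
  Kc : ∀ Z, ¬ G.Conn l Z → s.K Z = 0

/-- the state lives in the finite volume `Λ` -/
structure St.In (Λ : Finset X) (s : St X A) : Prop where
  q : ∀ x, x ∉ Λ → s.q x = 0
  qm : ∀ x, x ∉ Λ → s.qm x = 0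
  M : ∀ Z, ¬ Z ⊆ Λ → s.M Z = 0
  K : ∀ Z, ¬ Z ⊆ Λ → s.K Z = 0

/-- the effective Boltzmann factor -/
def St.Z (G : Geo X) (e : A →ₐ[ℝ] ℝ) (l : ℕ) (Λ : Finset X) (s : St X A) : A :=
  exA e (∑ x ∈ Λ, (s.q x + s.qm x)) * G.Xi l (fun Y => s.M Y + s.K Y) Λ

/-- algebraic axioms of a step -/
structure Sp.Alg (G : Geo X) (Lc : Finset X → Subalgebra ℝ A) (S : Sp X A) : Prop where
  le : S.l ≤ S.l'
  two : 2 * S.l ≤ S.l'
  mono : ∀ {Z Z'}, Z ⊆ Z' → Lc Z ≤ Lc Z'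
  mu_mem : ∀ {Z F}, F ∈ Lc Z → S.mu F ∈ Lc Z
  loc_mem : ∀ x F, S.loc x F ∈ Lc {x}
  cst_mem : ∀ {Z F}, F ∈ Lc Z → S.cst F ∈ Lc Z
  mv_mem : ∀ x {F}, F ∈ Lc {x} → S.mv x F ∈ Lc {x}
  mu_one : S.mu 1 = 1
  fac : ∀ {Y Z F F'}, G.Sep S.l' Y Z → F ∈ Lc Y → F' ∈ Lc Z → S.mu (F * F') = S.mu F * S.mu F'

/-- analytic axioms of a step: loss `Λ`, contraction `κ x` at the base point `x`, total contraction `θ` -/
structure Sp.Ana (G : Geo X) (Lc : Finset X → Subalgebra ℝ A) (S : Sp X A)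
    (Bd Bd' : Finset X → A → ℝ → Prop) (Λ θ : ℝ) (κ : X → ℝ) : Prop where
  h1 : ∀ {Z F c}, Z.Nonempty → Bd Z F c → Bd' Z (S.mu F) (Λ ^ G.cov S.l' Z * c)
  h2 : ∀ {Z x F c}, G.Small S.l Z → x ∈ Z → F ∈ Lc Z → Bd Z F c →
    Bd' Z (S.mu F - S.loc x (S.mu F)) (κ x * c)
  h3 : ∀ {Z x F c}, G.Small S.l Z → x ∈ Z → F ∈ Lc Z → Bd Z F c → Bd' {x} (S.loc x (S.mu F)) (Λ * c)
  κ_nonneg : ∀ x, 0 ≤ κ x
  κ_sum : ∀ y, ∃ (C : Finset X) (kb : X → ℝ), (∀ z ∈ G.ball y S.l', ∃ c ∈ C, G.d c z ≤ S.l) ∧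
    (∀ c ∈ C, ∀ x ∈ G.ball c (3 * S.l), κ x ≤ kb c) ∧ ∑ c ∈ C, kb c ≤ θ

/-- two states correspond on the window `W` under the site map `φ` and the algebra map `Φ` -/
structure St.Rel {X' A' : Type} [CommRing A'] [Algebra ℝ A'] (φ : X → X') (Φ : A →ₐ[ℝ] A') (W : Set X)
    (s : St X A) (s' : St X' A') : Prop where
  q : ∀ x ∈ W, s'.q (φ x) = Φ (s.q x)
  qm : ∀ x ∈ W, s'.qm (φ x) = Φ (s.qm x)
  M : ∀ Z : Finset X, ↑Z ⊆ W → s'.M (Z.image φ) = Φ (s.M Z)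
  K : ∀ Z : Finset X, ↑Z ⊆ W → s'.K (Z.image φ) = Φ (s.K Z)

/-- "polynomially continuous" dependence on a parameter -/
def PCts {P : Type} [TopologicalSpace P] (F : P → A) : Prop :=
  ∃ (n : ℕ) (a : Fin n → A) (c : Fin n → P → ℝ), (∀ i, Continuous (c i)) ∧ ∀ p, F p = ∑ i, c i p • a i

structure St.PCts {P : Type} [TopologicalSpace P] (s : P → St X A) : Prop where
  q : ∀ x, R165.PCts fun p => (s p).q x
  qm : ∀ x, R165.PCts fun p => (s p).qm x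
  M : ∀ Z, R165.PCts fun p => (s p).M Z
  K : ∀ Z, R165.PCts fun p => (s p).K Z

end Crest.Agent.R165
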