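import Mathlib

/-! # R165, Grassmann layer: definitions (FROZEN; ask helper96 before changing)

`Gr I` = exterior algebra on generators indexed by `I`; `mu g` = Gaussian convolution with covariance `g`
(Mathlib's `CliffordAlgebra.changeForm`); `gauss g` = its scalar part; `Ev I` = even subalgebra (commutative);
`GBd U F c` = "`F` is a combination with total weight `≤ c` of products of vectors of `U`" (projective gauge). -/

set_option autoImplicit false
noncomputable section
open Classical

namespace Crest.Agent.R165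

abbrev GV (I : Type) : Type := I →₀ ℝ
abbrev Gr (I : Type) : Type := ExteriorAlgebra ℝ (GV I)

variable {I : Type}

/-- the generator `θ_i` -/
def th (i : I) : Gr I := ExteriorAlgebra.ι ℝ (Finsupp.single i (1 : ℝ))

/-- pairing of a one-particle vector with a test function -/
def pr (u : GV I) (f : I → ℝ) : ℝ := Finsupp.linearCombination ℝ f u

def bil0 (g : I → I → ℝ) : LinearMap.BilinForm ℝ (GV I) :=
  Finsupp.linearCombination ℝ fun i => Finsupp.linearCombination ℝ (g i)

/-- the alternating form of (the antisymmetric part of) the kernel `g` -/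
def bil (g : I → I → ℝ) : LinearMap.BilinForm ℝ (GV I) := (1 / 2 : ℝ) • (bil0 g - (bil0 g).flip)

theorem neg_bil_quad (g : I → I → ℝ) :
    (-bil g).toQuadraticMap = (0 : QuadraticForm ℝ (GV I)) - (0 : QuadraticForm ℝ (GV I)) := by
  ext u
  simp [bil]

/-- Gaussian convolution: `mu g (ι u * x) = ι u * mu g x + contractLeft (bil g u) (mu g x)`, `mu g 1 = 1`. -/
def mu (g : I → I → ℝ) : Gr I →ₗ[ℝ] Gr I :=
  CliffordAlgebra.changeForm (Q := (0 : QuadraticForm ℝ (GV I))) (Q' := (0 : QuadraticForm ℝ (GV I)))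
    (B := -bil g) (neg_bil_quad g)

/-- scalar part -/
def aug : Gr I →ₐ[ℝ] ℝ := ExteriorAlgebra.algebraMapInv

/-- Gaussian expectation: `gauss g (θ_i θ_j) = g i j` for antisymmetric `g` -/
def gauss (g : I → I → ℝ) : Gr I →ₗ[ℝ] ℝ := aug.toLinearMap ∘ₗ mu g

def Antisym (g : I → I → ℝ) : Prop := ∀ i j, g j i = -g i j

/-- product of a list of one-particle vectors -/
def wedge (l : List (GV I)) : Gr I := (l.map (ExteriorAlgebra.ι ℝ)).prod

/-- projective gauge bound -/
def GBd (U : Set (GV I)) (F : Gr I) (c : ℝ) : Prop :=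
  ∃ L : List (ℝ × List (GV I)), (∀ p ∈ L, ∀ u ∈ p.2, u ∈ U) ∧
    F = (L.map fun p => p.1 • wedge p.2).sum ∧ (L.map fun p => |p.1|).sum ≤ c

/-- the subalgebra generated by the generators with index in `S` -/
def supA (S : Set I) : Subalgebra ℝ (Gr I) := Algebra.adjoin ℝ (th '' S)

/-- the even subalgebra -/
abbrev Ev (I : Type) : Type := CliffordAlgebra.even (0 : QuadraticForm ℝ (GV I))

/-- exponential of `scalar + nilpotent` in a commutative algebra with augmentation `e` -/
def exA {A : Type} [CommRing A] [Algebra ℝ A] [Algebra ℚ A] (e : A →ₐ[ℝ] ℝ) (a : A) : A :=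
  Real.exp (e a) • IsNilpotent.exp (a - algebraMap ℝ A (e a))

/-- algebra map induced by a linear map of one-particle spaces -/
def gmap {I J : Type} (T : GV I →ₗ[ℝ] GV J) : Gr I →ₐ[ℝ] Gr J := ExteriorAlgebra.map T

/-- the quadratic element `Σ_{i<j} a i j θ_i θ_j = ½ Σ_{i,j ∈ s} a i j θ_i θ_j` -/
def quad (s : Finset I) (a : I → I → ℝ) : Gr I := (1 / 2 : ℝ) • ∑ i ∈ s, ∑ j ∈ s, a i j • (th i * th j)

end Crest.Agent.R165
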