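import Crest.Agent.R165.Gr
import Crest.Prelude.Def_PerturbedIsing

/-! # R165, lattice layer: definitions (FROZEN; ask helper96 before changing)

Black sites `z ∈ ℤ²` carry the spins. The white site `x ∈ ℤ²` is the face with lower-left corner `x` (position
`x + (1+i)/2`); contours live on the white graph. Half-edge `(x, α)`, `α = 0,1,2,3 = E,N,W,S`. Edge `(x, j)` joins
`x` to `x + e_j`. The corner `(x, α)` ("`α + 1/2`": NE, NW, SW, SE) joins `x` to the black site `cB x α`.
`opA w` is the antisymmetric Dirac matrix with `Pf = Σ_{even γ} Π w`. -/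

set_option autoImplicit false
noncomputable section
open Classical

namespace Crest.Agent.R165

abbrev Site : Type := ℤ × ℤ
abbrev HE : Type := Site × Fin 4
abbrev Edge : Type := Site × Fin 2
abbrev Fn : Type := HE → ℝ

def tc : ℝ := Real.sqrt 2 - 1

def dv (α : Fin 4) : Site := ![(1, 0), (0, 1), (-1, 0), (0, -1)] α
def uv (j : Fin 2) : Site := ![(1, 0), (0, 1)] j

/-- `ℤ₈`-antiperiodic reading of the four values at `x` -/
def sv (s : Fn) (x : Site) (n : ℕ) : ℝ :=
  if n % 8 < 4 then s (x, ⟨n % 4, Nat.mod_lt _ (by norm_num)⟩) else -s (x, ⟨n % 4, Nat.mod_lt _ (by norm_num)⟩)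

/-- the edge carrying the half-edge `(x, α)` -/
def edgeOf (x : Site) (α : Fin 4) : Edge := ![(x, 0), (x, 1), (x - (1, 0), 0), (x - (0, 1), 1)] α

/-- signed value on the opposite half-edge -/
def opp (s : Fn) (x : Site) (α : Fin 4) : ℝ := sv s (x + dv α) (α + 2)

def opA (w : Edge → ℝ) (s : Fn) (i : HE) : ℝ :=
  sv s i.1 (i.2 + 1) + sv s i.1 (i.2 + 2) + sv s i.1 (i.2 + 3) + w (edgeOf i.1 i.2) * opp s i.1 i.2

def SolOn (w : Edge → ℝ) (W : Set Site) (s : Fn) : Prop := ∀ x ∈ W, ∀ α, opA w s (x, α) = 0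

/-- `g` is a covariance for `w`: `gauss g (θ_k θ_i) = g k i`, rows solve `A (g k) = δ_k` -/
def IsKer (w : Edge → ℝ) (g : HE → HE → ℝ) : Prop :=
  Antisym g ∧ ∀ k i, opA w (g k) i = if i = k then 1 else 0

def FinRow (g : HE → HE → ℝ) : Prop := ∀ k, (Function.support (g k)).Finite

def supd (x y : Site) : ℕ := max (x.1 - y.1).natAbs (x.2 - y.2).natAbs
def box (x : Site) (R : ℕ) : Finset Site := Finset.Icc (x.1 - R) (x.1 + R) ×ˢ Finset.Icc (x.2 - R) (x.2 + R)
/-- square frame -/
def frame (x : Site) (r R : ℕ) : Finset Site := box x R \ box x r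

/-- the white edge crossing the bond from the black site `z` to `z + e_j` -/
def bondEdge (z : Site) (j : Fin 2) : Edge := ![(z - (0, 1), 1), (z - (1, 0), 0)] j
/-- the two black sites separated by an edge -/
def edgeB0 (e : Edge) : Site := ![e.1 + (1, 0), e.1 + (0, 1)] e.2
def edgeB1 (e : Edge) : Site := e.1 + (1, 1)
/-- the black end of the corner `(x, α)` -/
def cB (x : Site) (α : Fin 4) : Site := x + ![(1, 1), (0, 1), (0, 0), (1, 0)] α

/-- sign flips along the east-going rays issued from the spins in `S` -/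
def eray (S : Finset Site) (e : Edge) : ℝ :=
  if e.2 = 1 then (-1) ^ (S.filter fun v => v.2 = e.1.2 + 1 ∧ v.1 ≤ e.1.1).card else 1

/-- "type P" weights: critical on `E`, frozen (`0`) elsewhere, branch points `S` -/
def wOf (E : Set Edge) (S : Finset Site) (e : Edge) : ℝ := if e ∈ E then tc * eray S e else 0
def wPl : Edge → ℝ := fun _ => tc
/-- plus boundary condition on the spin set `T`: bonds with at least one end in `T` -/
def ePlus (T : Set Site) : Set Edge := {e | edgeB0 e ∈ T ∨ edgeB1 e ∈ T}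
/-- bonds with both ends in `T` -/
def eIn (T : Set Site) : Set Edge := {e | edgeB0 e ∈ T ∧ edgeB1 e ∈ T}
/-- free boundary condition: weight `1` (infinite temperature) on all other bonds -/
def wFree (T : Set Site) (S : Finset Site) (e : Edge) : ℝ := (if e ∈ eIn T then tc else 1) * eray S e
/-- the dual (type P) picture of the free boundary condition: black `z` is read as the white site `z`,
white `x` as the black site `x + (1,1)` -/
def eDual (T : Set Site) : Set Edge := {e | e.1 ∈ T ∧ e.1 + uv e.2 ∈ T}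

/-- all edges at sites of `W` are critical -/
def Crit (E : Set Edge) (W : Set Site) : Prop := ∀ x ∈ W, ∀ α, edgeOf x α ∈ E

def FrozenB (E : Set Edge) (b : Site) : Prop := ∃ e, e ∉ E ∧ (edgeB0 e = b ∨ edgeB1 e = b)
def BdryB (E : Set Edge) (b : Site) : Prop := FrozenB E b ∧ ∃ e ∈ E, supd e.1 b ≤ 2
def FrozenStep (E : Set Edge) (W : Set Site) (b b' : Site) : Prop :=
  b ∈ W ∧ b' ∈ W ∧ ∃ e, e ∉ E ∧ ((edgeB0 e = b ∧ edgeB1 e = b') ∨ (edgeB0 e = b' ∧ edgeB1 e = b))
def toC (x : Site) : ℂ := ⟨x.1, x.2⟩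

/-- lattice regularity at scale `ρ`: two-sided balls, locally and globally connected frozen part -/
structure Reg (E : Set Edge) (ρ : ℝ) : Prop where
  ext : ∀ b, BdryB E b → ∃ c : ℂ, dist (toC b) c ≤ ρ + 5 ∧ ∀ e : Edge, dist (toC e.1) c ≤ ρ → e ∉ E
  int : ∀ b, BdryB E b → ∃ c : ℂ, dist (toC b) c ≤ ρ + 5 ∧ ∀ e : Edge, dist (toC e.1) c ≤ ρ → e ∈ E
  loc : ∀ b b' (r : ℕ), FrozenB E b → FrozenB E b' → supd b b' ≤ r → (r : ℝ) ≤ ρ / 100 →
    Relation.ReflTransGen (FrozenStep E (box b (10 * r + 10))) b b'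
  glob : ∀ b b', FrozenB E b → FrozenB E b' → Relation.ReflTransGen (FrozenStep E Set.univ) b b'

/-- `min (l, 1 + distance to S)` -/
def dB (S : Finset Site) (l : ℕ) (x : Site) : ℝ := ((S.fold min l fun v => supd x v + 1 : ℕ) : ℝ)

/-- weighted sup bound at scale `l` -/
def WB (S : Finset Site) (W : Set Site) (l : ℕ) (amp : ℝ) (s : Fn) : Prop :=
  ∀ x ∈ W, ∀ α, s (x, α) ^ 2 * dB S l x ≤ amp ^ 2 * l
def SB (W : Set Site) (amp : ℝ) (s : Fn) : Prop := ∀ x ∈ W, ∀ α, |s (x, α)| ≤ amp

/-- corner value seen from the edge `α` (counter-clockwise corner); the clockwise corner gets `cP - 2 s` -/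
def cP (w : Edge → ℝ) (s : Fn) (x : Site) (α : Fin 4) : ℝ := s (x, α) + w (edgeOf x α) * opp s x α

/-- `(Hw, Hb)` is a primitive of the square of `s` at the corners of the white sites of `W` -/
def IsH (w : Edge → ℝ) (s : Fn) (W : Set Site) (Hw Hb : Site → ℝ) : Prop :=
  ∀ x ∈ W, ∀ α, Hw x - Hb (cB x α) = cP w s x α ^ 2

/-- source vector of the corner `(x, α)`: `+1/2` at `α`, `-1/2` at `α+1, α+2, α+3` (antiperiodic reading) -/
def vC (α β : Fin 4) : ℝ := if β ≤ α then 1 / 2 else -1 / 2
/-- corner-source solution built from a kernel -/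
def kC (g : HE → HE → ℝ) (x : Site) (α : Fin 4) : Fn := fun i => ∑ β, vC α β * g (x, β) i

def om : ℂ := Complex.exp (3 * Real.pi * Complex.I / 4)
/-- massless complex field; in the bulk `s (x, α) ≈ Re (fld s x * conj om ^ α)` and `fld s` is almost holomorphic -/
def fld (s : Fn) (x : Site) : ℂ := (1 / 2 : ℂ) * ∑ α : Fin 4, om ^ (α : ℕ) * (s (x, α) : ℂ)
/-- constant solution with field `c` -/
def cSol (c : ℂ) : Fn := fun i => (c * (starRingEnd ℂ) om ^ (i.2 : ℕ)).re
/-- massive part -/
def mas (s : Fn) (i : HE) : ℝ := s i - cSol (fld s i.1) i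
def shift (a : Site) (s : Fn) : Fn := fun i => s (i.1 + a, i.2)
def dif (a : Site) (s : Fn) : Fn := fun i => s (i.1 + a, i.2) - s i

/-- square root with the cut along the positive real axis -/
def rt (z : ℂ) : ℂ := Complex.I * (-z) ^ (1 / 2 : ℂ)
def pos (x : Site) : ℂ := toC x + (1 + Complex.I) / 2
/-- single-valued version of the field: continuous across the cuts -/
def gfld (S : Finset Site) (s : Fn) (x : Site) : ℂ := fld s x * ∏ v ∈ S, rt (pos x - toC v)

/-- rotation by `π/2` about the white site `0`, acting on functions (order 8) -/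
def rotF (s : Fn) : Fn := fun i => sv s (i.1.2, -i.1.1) (i.2 + 7)
/-- reflection in the horizontal line through the white site `0` -/
def refF (s : Fn) : Fn := fun i => sv s (i.1.1, -i.1.2) (8 - i.2)

def EvenSub (γ : Finset Edge) : Prop := ∀ x : Site, Even (Finset.univ.filter fun α : Fin 4 => edgeOf x α ∈ γ).card
/-- contour partition function -/
def Zc (E : Finset Edge) (w : Edge → ℝ) : ℝ := ∑ γ ∈ E.powerset.filter EvenSub, ∏ e ∈ γ, w e
/-- modulus of the critical spin correlation in the type P geometry `E` -/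
def rho0 (E : Finset Edge) (S : Finset Site) : ℝ := |Zc E (wOf E S)| / Zc E (wOf E ∅)

/-- the two half-edges of an edge and the edge monomial -/
def he0 (e : Edge) : HE := (e.1, ![0, 1] e.2)
def he1 (e : Edge) : HE := (e.1 + uv e.2, ![2, 3] e.2)
def eMon (e : Edge) : Gr HE := th (he0 e) * th (he1 e)

end Crest.Agent.R165
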