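import Crest.Agent.R165.G.Main
import Crest.Agent.R165.Cont

/-! # R165, representation layer: definitions (FROZEN; ask helper96 before changing) -/

set_option autoImplicit false
noncomputable section
open Classical Crest.ProbabilityR.IsingModel

namespace Crest.Agent.R165

/-- contour configurations -/
abbrev Cfg : Type := Edge → Bool
def nOf (σ : Site → Bool) : Cfg := fun e => xor (σ (edgeB0 e)) (σ (edgeB1 e))
def ind (γ : Finset Edge) : Cfg := fun e => decide (e ∈ γ)

/-- multi-affine (Möbius) transform: `n_e ↦ x e` -/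
def hat {A : Type} [CommRing A] (x : Edge → A) (E₀ : Finset Edge) (F : Cfg → A) : A :=
  ∑ T ∈ E₀.powerset, (∑ U ∈ T.powerset, (-1) ^ (T.card - U.card) * F (ind U)) * ∏ e ∈ T, x e

/-- bounding box of a finite set of black sites -/
def bbox (B : Finset Site) : Finset Site :=
  if h : B.Nonempty then
    Finset.Icc (B.inf' h Prod.fst) (B.sup' h Prod.fst) ×ˢ Finset.Icc (B.inf' h Prod.snd) (B.sup' h Prod.snd)
  else ∅
/-- edges crossing the bonds inside the bounding box -/
def bEdges (B : Finset Site) : Finset Edge :=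
  (((bbox B) ×ˢ (Finset.univ : Finset (Fin 2))).image fun p => bondEdge p.1 p.2).filter
    fun e => edgeB0 e ∈ bbox B ∧ edgeB1 e ∈ bbox B
/-- white sites of the polymer attached to the shape `B` -/
def bSites (B : Finset Site) : Finset Site := (bbox B).biUnion fun z => {z, z - (1, 0), z - (0, 1), z - (1, 1)}
/-- canonical (symmetric) extension of `σ_B`, `|B|` even, to all contour configurations -/
def sB (B : Finset Site) (n : Cfg) : ℝ :=
  if h : ∃ σ : Site → Bool, ∀ e ∈ bEdges B, n e = nOf σ e then ∏ z ∈ B, spinSign (h.choose z) else 0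

def IsShape (R : ℕ) (B : Finset Site) : Prop := B.Nonempty ∧ ∀ x ∈ B, ∀ y ∈ B, supd x y ≤ R
/-- the shapes that contribute to the energy of `T` -/
def shapes (T : Finset Site) (b : BoundaryCondition) (R : ℕ) : Finset (Finset Site) :=
  (T.biUnion fun z => box z R).powerset.filter fun B =>
    IsShape R B ∧ if b = BoundaryCondition.free then B ⊆ T else (B ∩ T).Nonempty
/-- Boltzmann factor of the perturbation, `μ = β lam` -/
def pertF (𝒮 : Finset (Finset Site)) (μ : ℝ) (V : Finset Site → ℝ) (n : Cfg) : ℝ :=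
  ∏ B ∈ 𝒮, Real.exp (μ * V B * sB B n)

/-- hypotheses on the potential -/
structure PotOK (R : ℕ) (V : Finset Site → ℝ) : Prop where
  even : ∀ A, V A ≠ 0 → Even A.card
  range : ∀ A, V A ≠ 0 → ∀ x ∈ A, ∀ y ∈ A, |x.1 - y.1| ≤ (R : ℤ) ∧ |x.2 - y.2| ≤ (R : ℤ)
  trans : ∀ A (z : ℤ × ℤ), V (A.image fun x => x + z) = V A
  rot : ∀ A, V (A.image rotate) = V A
  refl : ∀ A, V (A.image reflect) = V A

/-- weighted contour sum -/
def Zf (E : Finset Edge) (w : Edge → ℝ) (F : Cfg → ℝ) : ℝ :=
  ∑ γ ∈ E.powerset.filter EvenSub, (∏ e ∈ γ, w e) * F (ind γ)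

/-- physical weights at `t = exp (-2 β J)` -/
def wPlusT (t : ℝ) (S : Finset Site) (e : Edge) : ℝ := t * eray S e
def wFreeT (t : ℝ) (T : Set Site) (S : Finset Site) (e : Edge) : ℝ := (if e ∈ eIn T then t else 1) * eray S e
/-- all edges whose first site is within `r` of `T` -/
def eNear (T : Finset Site) (r : ℕ) : Finset Edge := (T.biUnion fun z => box z r) ×ˢ Finset.univ

section even
variable {I : Type} (ι : HE → I)

theorem th_mul_th_even (i j : I) : th i * th j ∈ CliffordAlgebra.even (0 : QuadraticForm ℝ (GV I)) :=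
  CliffordAlgebra.ι_mul_ι_mem_evenOdd_zero _ _ _

def th2 (i j : I) : Ev I := ⟨th i * th j, th_mul_th_even i j⟩
def eM (e : Edge) : Ev I := th2 (ι (he0 e)) (ι (he1 e))
/-- the vertex term `Σ_{α<β} θ_α θ_β` -/
def a0M (x : Site) : Ev I := ∑ α : Fin 4, ∑ β : Fin 4, if α < β then th2 (ι (x, α)) (ι (x, β)) else 0
/-- local piece at `x` of `A_{w'} ∘ ρ - A_w` -/
def pLoc (ρ : Site → ℝ) (w w' : Edge → ℝ) (x : Site) : Ev I :=
  (ρ x ^ 2 - 1) • a0M ι x +
    ∑ α : Fin 4, ((1 / 2) * (ρ x * ρ (x + dv α) * w' (edgeOf x α) - w (edgeOf x α))) • eM ι (edgeOf x α)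
/-- extension of a kernel on half-edges by zero -/
def extK (g : HE → HE → ℝ) (i j : I) : ℝ :=
  if h : (∃ a, ι a = i) ∧ ∃ b, ι b = j then g h.1.choose h.2.choose else 0

end even

end Crest.Agent.R165
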